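import Vale.Agent.Lib.P184.Twist

/-!
# P184 / free products, module FP5: idempotent matrices over `ℓ¹(G)` at `ℓ¹`-distance `< 1` have the same Hattori-Stallings trace

FROZEN STATEMENT (do not change it; fill the sorry).

ROUTE.  Everything is in `Vale/Agent/Lib/P184/{Kernel,Mat,Twist}.lean`.  Put `u := fun _ _ => (1 : ℂ)`, `hu : ∀ x h, ‖u x h‖ ≤ 1 := by simp`, `E := twistM e hsum u hu`, `E' := twistM e' hsum' u hu`.
* `twistM_idem e hsum hidem u hu (by simp)` and the same for `e'`: `E * E = E`, `E' * E' = E'`.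
* `mnrm (E' - E) ≤ ∑ i, ∑ j, ∑' g, ‖e' i j g - e i j g‖`: unfold `mnrm`; for each `i j` use `nrm_le_of_le` with `m g := ‖e' i j g - e i j g‖` (summable: `((hsum' i j).add (hsum i j)).of_nonneg_of_le` + `norm_sub_le`);
  the kernel of `(E' - E) i j` at `(h, x)` is `1 * e' i j h - 1 * e i j h` (see the proof of `mnrm_twistM_sub_le` for the `change`/`twist_apply` steps).
* `mtr_eq_of_close hS hE hE' hlt : mtr S E' = mtr S E`, and `mtr_twistM e hsum u hu S 1 (fun _ _ => rfl) : mtr S E = 1 * ∑' x : S, ∑ i, e i i x`.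
-/

namespace Vale.Agent.Lib.P184.Free

open scoped BigOperators

theorem trace_eq_of_l1_close {G : Type*} [Group G] {ι : Type*} [Fintype ι] [DecidableEq ι]
    (e e' : Matrix ι ι (G → ℂ))
    (hsum : ∀ i j, Summable fun g => ‖e i j g‖) (hsum' : ∀ i j, Summable fun g => ‖e' i j g‖)
    (hidem : ∀ i j g, ∑ k, ∑' h, e i k h * e k j (h⁻¹ * g) = e i j g)
    (hidem' : ∀ i j g, ∑ k, ∑' h, e' i k h * e' k j (h⁻¹ * g) = e' i j g)
    (hclose : ∑ i, ∑ j, ∑' g, ‖e' i j g - e i j g‖ < 1)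
    (S : Set G) (hS : ∀ h k : G, h * k ∈ S ↔ k * h ∈ S) :
    ∑' x : S, ∑ i, e' i i x = ∑' x : S, ∑ i, e i i x := by
  have hu : ∀ x h : G, ‖(fun _ _ => (1 : ℂ) : G → G → ℂ) x h‖ ≤ 1 := by
    intro x h; simp
  have hE := twistM_idem e hsum hidem (fun _ _ => (1 : ℂ)) hu (by simp)
  have hE' := twistM_idem e' hsum' hidem' (fun _ _ => (1 : ℂ)) hu (by simp)
  have hle : mnrm (twistM e' hsum' (fun _ _ => (1 : ℂ)) hu - twistM e hsum (fun _ _ => (1 : ℂ)) hu)
      ≤ ∑ i, ∑ j, ∑' g, ‖e' i j g - e i j g‖ := by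
    unfold mnrm
    refine Finset.sum_le_sum fun i _ => Finset.sum_le_sum fun j _ => ?_
    have hs : Summable fun g => ‖e' i j g - e i j g‖ :=
      Summable.of_nonneg_of_le (fun g => norm_nonneg _) (fun g => norm_sub_le _ _)
        ((hsum' i j).add (hsum i j))
    refine nrm_le_of_le hs fun h x => ?_
    have : ((twistM e' hsum' (fun _ _ => (1 : ℂ)) hu
        - twistM e hsum (fun _ _ => (1 : ℂ)) hu) i j).1 h x = e' i j h - e i j h := by
      simp only [Matrix.sub_apply, twistM]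
      change (twist _ _ (fun _ _ => (1 : ℂ)) hu).1 h x
        - (twist _ _ (fun _ _ => (1 : ℂ)) hu).1 h x = _
      rw [twist_apply, twist_apply]; ring
    rw [this]
  have hlt := lt_of_le_of_lt hle hclose
  have key := mtr_eq_of_close hS hE hE' hlt
  rw [mtr_twistM e hsum _ hu S 1 (fun _ _ => rfl), mtr_twistM e' hsum' _ hu S 1 (fun _ _ => rfl),
    one_mul, one_mul] at key
  exact key

end Vale.Agent.Lib.P184.Free
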