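import Vale.Agent.Lib.P184.Free.FMain

/-!
# P184: the statement of Q1 passes to retracts
-/

namespace Vale.Agent.Lib.P184.Free

open scoped BigOperators

theorem q1_retract_down {G H : Type*} [Group G] [Group H] (s : H →* G) (r : G →* H)
    (hrs : ∀ h, r (s h) = h)
    (hG : ∀ (q : ℕ) (e : Matrix (Fin q) (Fin q) (G → ℂ)),
      (∀ a b, Summable fun g => ‖e a b g‖) →
      (∀ a b g, ∑ k, ∑' h, e a k h * e k b (h⁻¹ * g) = e a b g) →
      ∃ F : Finset (ConjClasses G), (∀ C ∈ F, ∀ x ∈ C.carrier, IsOfFinOrder x) ∧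
        ∀ C ∉ F, ∑' x : C.carrier, ∑ a, e a a x = 0)
    (q : ℕ) (e : Matrix (Fin q) (Fin q) (H → ℂ))
    (hsum : ∀ a b, Summable fun g => ‖e a b g‖)
    (hidem : ∀ a b g, ∑ k, ∑' h, e a k h * e k b (h⁻¹ * g) = e a b g) :
    ∃ F : Finset (ConjClasses H), (∀ C ∈ F, ∀ x ∈ C.carrier, IsOfFinOrder x) ∧
      ∀ C ∉ F, ∑' x : C.carrier, ∑ a, e a a x = 0 := by
  classical
  obtain ⟨F, hFfin, hFvan⟩ := hG q (fun a b => push s (e a b))
    (fun a b => push_summable _ _ (hsum a b)) (fun a b y => push_idem s e hsum hidem a b y)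
  have hsinj : Function.Injective s := fun a b hab => by
    have := congrArg r hab
    rwa [hrs, hrs] at this
  have hinj : Function.Injective (ConjClasses.map s) := by
    intro D D' hDD
    obtain ⟨d, rfl⟩ := ConjClasses.exists_rep D
    obtain ⟨d', rfl⟩ := ConjClasses.exists_rep D'
    have h1 : ConjClasses.mk (s d) = ConjClasses.mk (s d') := hDD
    rw [ConjClasses.mk_eq_mk_iff_isConj] at h1 ⊢
    have := r.map_isConj h1
    rwa [hrs, hrs] at this
  refine ⟨F.preimage (ConjClasses.map s) hinj.injOn, ?_, ?_⟩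
  · intro D hD x hx
    rw [Finset.mem_preimage] at hD
    have hx' : s x ∈ (ConjClasses.map s D).carrier := by
      rw [ConjClasses.mem_carrier_iff_mk_eq] at hx ⊢
      rw [← hx]
      rfl
    have := hFfin _ hD (s x) hx'
    exact (hsinj.isOfFinOrder_iff).1 this
  · intro D hD
    rw [Finset.mem_preimage] at hD
    have h0 := hFvan _ hD
    set f : H → ℂ := fun x => ∑ a, e a a x with hf
    have hfs : Summable fun g => ‖f g‖ := by
      refine Summable.of_nonneg_of_le (fun _ => norm_nonneg _) (fun g => norm_sum_le _ _)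
        (summable_sum fun a _ => hsum a a)
    have h2 : ∀ y, push s f y = ∑ a, push s (e a a) y := fun y =>
      push_finset_sum Finset.univ s (fun a => e a a) (fun a _ => hsum a a) y
    have h3 : ∑' y : (ConjClasses.map s D).carrier, push s f y = 0 := by
      rw [← h0]
      exact tsum_congr fun y => h2 y
    rw [push_tsum s f hfs] at h3
    have hset : (s ⁻¹' (ConjClasses.map s D).carrier : Set H) = D.carrier := by
      ext x
      rw [Set.mem_preimage, ConjClasses.mem_carrier_iff_mk_eq, ConjClasses.mem_carrier_iff_mk_eq]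
      constructor
      · intro h
        exact hinj h
      · intro h
        rw [← h]
        rfl
    rw [hset] at h3
    exact h3

end Vale.Agent.Lib.P184.Free
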