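import Vale.Agent.Lib.P184.Free.Push

/-!
# P184 / free products, module FP6: truncation of a free product to finitely many factors

FROZEN STATEMENTS (do not change them; fill the sorries; private helper lemmas are welcome).
`rho J : CoprodI M →* CoprodI M` kills the factors outside the finite set `J` and is the identity on the factors in `J`.

ROUTE.
* `rho_of_mem`, `rho_of_notMem`: `lift_of` and `if_pos` / `if_neg`.
* `exists_rho_fix`: `Monoid.CoprodI.induction_on x`: `1`: `J₀ = ∅`; `of m` with `m : M i`: `J₀ = {i}`; products: union.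
* `push_eq_zero_of_notMem_range`: the fibre `{x // r x = y}` is empty (`tsum_empty` after `isEmpty_subtype`).
* `norm_push_sub_le` (general fact, `r : G →* G`, `P := {x | r x = x}`): `∑' y, ‖push r a y - a y‖ ≤ 2 * ∑' x : (Pᶜ : Set G), ‖a x‖`.
  Write `a = a₁ + a₂`, `a₁ := P.indicator a`, `a₂ := Pᶜ.indicator a`.  `push r a₁ = a₁`: in the fibre over `y` the only point of `P` is `y` itself (if `r x = y`, `r x = x` then `x = y`), and it lies in the fibre iff `y ∈ P` (`tsum_eq_single`).
  So `push r a y - a y = push r a₂ y - a₂ y` (`push` is additive: `Summable.tsum_add` on the fibre), and `∑' y, ‖push r a₂ y‖ ≤ ∑' x, ‖a₂ x‖` (sum over `Equiv.sigmaFiberEquiv r`, `norm_tsum_le_tsum_norm`), `∑' x, ‖a₂ x‖ = ∑' x : Pᶜ, ‖a x‖` (`tsum_subtype`).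
* `exists_push_rho_close`: given `ε > 0` there is a finite `T : Finset G` with `∑' x : ((T : Set G)ᶜ : Set G), ‖a x‖ < ε / 2` (`Summable.tsum_vanishing`, or `tendsto_tsum_compl_atTop_zero (fun x => ‖a x‖)`).  `J₀ := T.biUnion (J₀ of x)` from `exists_rho_fix` (`choose`).
  For `J ⊇ J₀`: `T ⊆ P_J`, so `P_Jᶜ ⊆ Tᶜ` and `∑' x : P_Jᶜ, ‖a x‖ ≤ ∑' x : Tᶜ, ‖a x‖` (`Summable.tsum_le_tsum` for indicators, or `tsum_subtype_le`-type lemmas).
-/

namespace Vale.Agent.Lib.P184.Free

open scoped BigOperators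
open Monoid.CoprodI

variable {ι : Type*} [DecidableEq ι] {M : ι → Type*} [∀ i, Group (M i)]

/-- the endomorphism of the free product which kills the factors outside `J` -/
noncomputable def rho (J : Finset ι) : Monoid.CoprodI M →* Monoid.CoprodI M :=
  lift fun i => if i ∈ J then (of : M i →* Monoid.CoprodI M) else 1

theorem rho_of_mem (J : Finset ι) {i : ι} (hi : i ∈ J) (m : M i) :
    rho J (of m : Monoid.CoprodI M) = of m := by
  unfold rho
  rw [lift_of, if_pos hi]

theorem rho_of_notMem (J : Finset ι) {i : ι} (hi : i ∉ J) (m : M i) :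
    rho J (of m : Monoid.CoprodI M) = 1 := by
  unfold rho
  rw [lift_of, if_neg hi]
  rfl

theorem exists_rho_fix (x : Monoid.CoprodI M) : ∃ J₀ : Finset ι, ∀ J : Finset ι, J₀ ⊆ J → rho J x = x := by
  induction x using Monoid.CoprodI.induction_on with
  | one => exact ⟨∅, fun J _ => map_one _⟩
  | of i m => exact ⟨{i}, fun J hJ => rho_of_mem J (hJ (Finset.mem_singleton_self i)) m⟩
  | mul x y hx hy =>
    obtain ⟨J1, h1⟩ := hx
    obtain ⟨J2, h2⟩ := hy
    exact ⟨J1 ∪ J2, fun J hJ => by
      rw [map_mul, h1 J (Finset.subset_union_left.trans hJ),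
        h2 J (Finset.subset_union_right.trans hJ)]⟩

theorem push_eq_zero_of_notMem_range {G H : Type*} [Group G] [Group H] (r : G →* H) (a : G → ℂ) (y : H)
    (hy : ∀ x, r x ≠ y) : push r a y = 0 := by
  unfold push
  have : IsEmpty {x : G // r x = y} := ⟨fun x => hy x.1 x.2⟩
  exact tsum_empty

private theorem tsum_norm_push_le {G H : Type*} [Group G] [Group H] (r : G →* H) (b : G → ℂ)
    (hb : Summable fun g => ‖b g‖) : ∑' y, ‖push r b y‖ ≤ ∑' x, ‖b x‖ := by
  have hs2 : Summable fun c : (Σ y : H, {x : G // r x = y}) =>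
      ‖b (Equiv.sigmaFiberEquiv r c)‖ := (Equiv.sigmaFiberEquiv r).summable_iff.2 hb
  have e1 : ∑' x, ‖b x‖ = ∑' y, ∑' x : {x : G // r x = y}, ‖b x‖ := by
    rw [← (Equiv.sigmaFiberEquiv r).tsum_eq, Summable.tsum_sigma hs2]
    rfl
  rw [e1]
  exact Summable.tsum_le_tsum (fun y => norm_tsum_le_tsum_norm (hb.subtype _))
    (push_summable r b hb) hs2.sigma

theorem norm_push_sub_le {G : Type*} [Group G] (r : G →* G) (a : G → ℂ)
    (ha : Summable fun g => ‖a g‖) :
    ∑' y, ‖push r a y - a y‖ ≤ 2 * ∑' x : ({x | r x = x}ᶜ : Set G), ‖a x‖ := by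
  classical
  set P : Set G := {x | r x = x} with hP
  set a₁ : G → ℂ := P.indicator a with ha₁
  set a₂ : G → ℂ := Pᶜ.indicator a with ha₂
  have h12 : ∀ x, a x = a₁ x + a₂ x :=
    fun x => (congrFun (Set.indicator_self_add_compl P a) x).symm
  have ha1 : Summable fun g => ‖a₁ g‖ :=
    Summable.of_nonneg_of_le (fun _ => norm_nonneg _) (fun x => norm_indicator_le_norm_self a x) ha
  have ha2 : Summable fun g => ‖a₂ g‖ :=
    Summable.of_nonneg_of_le (fun _ => norm_nonneg _) (fun x => norm_indicator_le_norm_self a x) ha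
  have key : ∀ y, push r a y - a y = push r a₂ y - a₂ y := by
    intro y
    have e1 : push r a y = push r a₁ y + push r a₂ y := by
      unfold push
      have s1 : Summable fun x : {x : G // r x = y} => a₁ x := ha1.of_norm.subtype _
      have s2 : Summable fun x : {x : G // r x = y} => a₂ x := ha2.of_norm.subtype _
      rw [← Summable.tsum_add s1 s2]
      exact tsum_congr (fun x => h12 x)
    have e2 : push r a₁ y = a₁ y := by
      unfold push
      by_cases hy : r y = y
      · rw [tsum_eq_single (⟨y, hy⟩ : {x : G // r x = y})]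
        rintro ⟨x, hx⟩ hne
        apply Set.indicator_of_notMem
        intro hxP
        apply hne
        apply Subtype.ext
        show x = y
        rw [← hx]
        exact (hxP : r x = x).symm
      · have h0 : ∀ x : {x : G // r x = y}, a₁ x = 0 := by
          rintro ⟨x, hx⟩
          apply Set.indicator_of_notMem
          intro hxP
          apply hy
          have hxy : x = y := by
            rw [← hx]
            exact (hxP : r x = x).symm
          rw [← hxy]
          exact hxP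
        rw [tsum_congr h0, tsum_zero]
        exact (Set.indicator_of_notMem (show y ∉ P from hy) a).symm
    rw [e1, e2, h12 y]
    ring
  have hp2 := push_summable r a₂ ha2
  have hsum : Summable fun y => ‖push r a₂ y‖ + ‖a₂ y‖ := hp2.add ha2
  have hlast : ∑' y, ‖a₂ y‖ = ∑' x : (Pᶜ : Set G), ‖a x‖ := by
    rw [tsum_subtype (Pᶜ : Set G) (fun x => ‖a x‖)]
    apply tsum_congr
    intro y
    exact norm_indicator_eq_indicator_norm a y
  calc ∑' y, ‖push r a y - a y‖ = ∑' y, ‖push r a₂ y - a₂ y‖ :=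
        tsum_congr (fun y => by rw [key])
    _ ≤ ∑' y, (‖push r a₂ y‖ + ‖a₂ y‖) :=
        Summable.tsum_le_tsum (fun y => norm_sub_le _ _)
          (Summable.of_nonneg_of_le (fun _ => norm_nonneg _) (fun y => norm_sub_le _ _) hsum) hsum
    _ = ∑' y, ‖push r a₂ y‖ + ∑' y, ‖a₂ y‖ := Summable.tsum_add hp2 ha2
    _ ≤ 2 * ∑' y, ‖a₂ y‖ := by linarith [tsum_norm_push_le r a₂ ha2]
    _ = 2 * ∑' x : (Pᶜ : Set G), ‖a x‖ := by rw [hlast]

theorem exists_push_rho_close (a : Monoid.CoprodI M → ℂ) (ha : Summable fun g => ‖a g‖) (ε : ℝ)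
    (hε : 0 < ε) :
    ∃ J₀ : Finset ι, ∀ J : Finset ι, J₀ ⊆ J → ∑' y, ‖push (rho J) a y - a y‖ < ε := by
  classical
  have ht := tendsto_tsum_compl_atTop_zero (fun x => ‖a x‖)
  obtain ⟨T, hT⟩ := (ht.eventually (gt_mem_nhds (half_pos hε))).exists
  choose J₀ hJ₀ using (exists_rho_fix (M := M))
  refine ⟨T.biUnion J₀, fun J hJ => ?_⟩
  refine lt_of_le_of_lt (norm_push_sub_le (rho J) a ha) ?_
  have hsub : ∀ x : Monoid.CoprodI M, x ∈ ({x | rho J x = x}ᶜ : Set (Monoid.CoprodI M)) →
      x ∉ T := by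
    intro x hx hxT
    exact hx (hJ₀ x J ((Finset.subset_biUnion_of_mem J₀ hxT).trans hJ))
  have hle : ∑' x : ({x | rho J x = x}ᶜ : Set (Monoid.CoprodI M)), ‖a x‖
      ≤ ∑' x : {x // x ∉ T}, ‖a x‖ := by
    refine Summable.tsum_le_tsum_of_inj
      (fun x : ({x | rho J x = x}ᶜ : Set (Monoid.CoprodI M)) =>
        (⟨x.1, hsub x.1 x.2⟩ : {x // x ∉ T})) ?_ (fun _ _ => norm_nonneg _) (fun _ => le_rfl)
      (ha.subtype _) (ha.subtype _)
    intro x y hxy
    exact Subtype.ext (congrArg (fun z : {x // x ∉ T} => z.1) hxy)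
  linarith

end Vale.Agent.Lib.P184.Free
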