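import Vale.Agent.Lib.P184.Free.FMain
import Vale.Agent.Lib.P184.Free.Close
import Vale.Agent.Lib.P184.Free.Tail

/-!
# P184 / free products: the statement of Q1 passes to arbitrary free products
-/

namespace Vale.Agent.Lib.P184.Free

open scoped BigOperators
open Monoid.CoprodI

/-- the statement of Q1 for an idempotent matrix over a free product whose trace vanishes at the nontrivial classes of all factors outside a finite set `J` -/
theorem q1_coprodI_of_support {ι : Type*} {M : ι → Type*} [∀ i, Group (M i)]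
    (hM : ∀ (i : ι) (q : ℕ) (e : Matrix (Fin q) (Fin q) (M i → ℂ)),
      (∀ a b, Summable fun g => ‖e a b g‖) →
      (∀ a b g, ∑ k, ∑' h, e a k h * e k b (h⁻¹ * g) = e a b g) →
      ∃ F : Finset (ConjClasses (M i)), (∀ C ∈ F, ∀ x ∈ C.carrier, IsOfFinOrder x) ∧
        ∀ C ∉ F, ∑' x : C.carrier, ∑ a, e a a x = 0)
    (q : ℕ) (e : Matrix (Fin q) (Fin q) (Monoid.CoprodI M → ℂ))
    (hsum : ∀ a b, Summable fun g => ‖e a b g‖)
    (hidem : ∀ a b g, ∑ k, ∑' h, e a k h * e k b (h⁻¹ * g) = e a b g)
    (J : Finset ι)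
    (hJ : ∀ i ∉ J, ∀ m : M i, m ≠ 1 →
      ∑' x : (ConjClasses.mk (of m : Monoid.CoprodI M)).carrier, ∑ a, e a a x = 0) :
    ∃ F : Finset (ConjClasses (Monoid.CoprodI M)), (∀ C ∈ F, ∀ x ∈ C.carrier, IsOfFinOrder x) ∧
      ∀ C ∉ F, ∑' x : C.carrier, ∑ a, e a a x = 0 := by
  classical
  let r : ∀ i, Monoid.CoprodI M →* M i := fun i => lift (Pi.mulSingle i (MonoidHom.id (M i)))
  have hr_same : ∀ i (m : M i), r i (of m) = m := fun i m => of_leftInverse i m
  have hr_ne : ∀ i j (_ : j ≠ i) (m : M j), r i (of m) = 1 := by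
    intro i j hij m
    simp only [r, lift_of, Pi.mulSingle_eq_of_ne hij, MonoidHom.one_apply]
  choose F hFfin hFvan using fun i => hM i q (fun a b => push (r i) (e a b))
    (fun a b => push_summable _ _ (hsum a b)) (fun a b y => push_idem (r i) e hsum hidem a b y)
  -- hyperbolic classes
  have hhyp : ∀ (i j : ι) (w : NeWord M i j) (u : Monoid.CoprodI M), i ≠ j →
      ∑' x : (ConjClasses.mk (u * w.prod * u⁻¹)).carrier, ∑ a, e a a x = 0 := by
    intro i j w u hij
    have h1 : ConjClasses.mk (u * w.prod * u⁻¹) = ConjClasses.mk w.prod := by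
      rw [ConjClasses.mk_eq_mk_iff_isConj, isConj_comm, isConj_iff]
      exact ⟨u, rfl⟩
    rw [h1]
    exact trace_vanish_of_neword e hsum hidem w hij
  refine ⟨insert (ConjClasses.mk 1)
    (J.biUnion fun i => (F i).image (ConjClasses.map (of : M i →* Monoid.CoprodI M))), ?_, ?_⟩
  · intro C hC x hx
    rw [Finset.mem_insert, Finset.mem_biUnion] at hC
    rcases hC with rfl | ⟨i, -, hC⟩
    · exact isOfFinOrder_of_isConj (mem_carrier_mk.1 hx) IsOfFinOrder.one
    · obtain ⟨D, hD, rfl⟩ := Finset.mem_image.1 hC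
      obtain ⟨d, rfl⟩ := ConjClasses.exists_rep D
      have hd : IsOfFinOrder d := hFfin i _ hD d ConjClasses.mem_carrier_mk
      have hx' : x ∈ (ConjClasses.mk ((of : M i →* Monoid.CoprodI M) d)).carrier := hx
      exact isOfFinOrder_of_isConj (mem_carrier_mk.1 hx') (MonoidHom.isOfFinOrder _ hd)
  · intro C hC
    rw [Finset.mem_insert, Finset.mem_biUnion, not_or] at hC
    obtain ⟨hC1, hC2⟩ := hC
    obtain ⟨g, rfl⟩ := ConjClasses.exists_rep C
    rcases trichotomy g with rfl | ⟨i, m, u, rfl⟩ | ⟨i, j, w, u, hij, rfl⟩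
    · exact absurd rfl hC1
    · have h1 : ConjClasses.mk (u * of m * u⁻¹) = ConjClasses.mk ((of : M i →* Monoid.CoprodI M) m) := by
        rw [ConjClasses.mk_eq_mk_iff_isConj, isConj_comm, isConj_iff]
        exact ⟨u, rfl⟩
      rw [h1] at hC1 hC2 ⊢
      have hm : m ≠ 1 := by
        rintro rfl
        exact hC1 (by rw [map_one])
      by_cases hiJ : i ∈ J
      swap
      · exact hJ i hiJ m hm
      have hD : ConjClasses.mk m ∉ F i := by
        intro hmem
        exact hC2 ⟨i, hiJ, Finset.mem_image.2 ⟨_, hmem, rfl⟩⟩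
      have h0 := hFvan i _ hD
      set f : Monoid.CoprodI M → ℂ := fun x => ∑ a, e a a x with hf
      have hfs : Summable fun g => ‖f g‖ := by
        refine Summable.of_nonneg_of_le (fun _ => norm_nonneg _) (fun g => norm_sum_le _ _)
          (summable_sum fun a _ => hsum a a)
      have h2 : ∀ y, push (r i) f y = ∑ a, push (r i) (e a a) y := fun y =>
        push_finset_sum Finset.univ (r i) (fun a => e a a) (fun a _ => hsum a a) y
      have h3 : ∑' y : (ConjClasses.mk m).carrier, push (r i) f y = 0 := by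
        rw [← h0]
        exact tsum_congr fun y => h2 y
      rw [push_tsum (r i) f hfs] at h3
      rw [← h3]
      symm
      refine tsum_eq_of_classes f hfs _ ?_ _ ?_ ?_
      · intro x hx v
        have hx' : IsConj (r i x) m := mem_carrier_mk.1 hx
        show r i (v * x * v⁻¹) ∈ (ConjClasses.mk m).carrier
        rw [mem_carrier_mk, map_mul, map_mul, map_inv]
        refine IsConj.trans ?_ hx'
        rw [isConj_comm, isConj_iff]
        exact ⟨r i v, rfl⟩
      · intro x hx
        have hx' : IsConj x (of m) := mem_carrier_mk.1 hx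
        show r i x ∈ (ConjClasses.mk m).carrier
        rw [mem_carrier_mk]
        have := (r i).map_isConj hx'
        rwa [hr_same] at this
      · rintro C' hne ⟨x, hxC, hxS⟩
        have hxS' : IsConj (r i x) m := mem_carrier_mk.1 hxS
        have hC' : ConjClasses.mk x = C' := ConjClasses.mem_carrier_iff_mk_eq.1 hxC
        subst hC'
        rcases trichotomy x with rfl | ⟨j, m', u', rfl⟩ | ⟨j, k, w, u', hjk, rfl⟩
        · rw [map_one] at hxS'
          exact absurd (isConj_one_iff' hxS') hm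
        · exfalso
          by_cases hji : j = i
          · subst hji
            rw [map_mul, map_mul, map_inv, hr_same] at hxS'
            have h4 : IsConj m' m := by
              refine IsConj.trans ?_ hxS'
              rw [isConj_iff]
              exact ⟨r j u', rfl⟩
            apply hne
            rw [ConjClasses.mk_eq_mk_iff_isConj]
            refine IsConj.trans ?_ ((of : M j →* Monoid.CoprodI M).map_isConj h4)
            rw [isConj_comm, isConj_iff]
            exact ⟨u', rfl⟩
          · rw [map_mul, map_mul, map_inv, hr_ne i j hji, mul_one, mul_inv_cancel] at hxS'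
            exact hm (isConj_one_iff' hxS')
        · exact hhyp j k w u' hjk
    · exact hhyp i j w u hij

theorem q1_coprodI_all {ι : Type*} {M : ι → Type*} [∀ i, Group (M i)]
    (hM : ∀ (i : ι) (q : ℕ) (e : Matrix (Fin q) (Fin q) (M i → ℂ)),
      (∀ a b, Summable fun g => ‖e a b g‖) →
      (∀ a b g, ∑ k, ∑' h, e a k h * e k b (h⁻¹ * g) = e a b g) →
      ∃ F : Finset (ConjClasses (M i)), (∀ C ∈ F, ∀ x ∈ C.carrier, IsOfFinOrder x) ∧
        ∀ C ∉ F, ∑' x : C.carrier, ∑ a, e a a x = 0)
    (q : ℕ) (e : Matrix (Fin q) (Fin q) (Monoid.CoprodI M → ℂ))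
    (hsum : ∀ a b, Summable fun g => ‖e a b g‖)
    (hidem : ∀ a b g, ∑ k, ∑' h, e a k h * e k b (h⁻¹ * g) = e a b g) :
    ∃ F : Finset (ConjClasses (Monoid.CoprodI M)), (∀ C ∈ F, ∀ x ∈ C.carrier, IsOfFinOrder x) ∧
      ∀ C ∉ F, ∑' x : C.carrier, ∑ a, e a a x = 0 := by
  classical
  set ε : ℝ := 1 / ((q : ℝ) * q + 1) with hε
  have hε0 : 0 < ε := by rw [hε]; positivity
  choose J₀ hJ₀ using fun a b => exists_push_rho_close (e a b) (hsum a b) ε hε0
  set J : Finset ι := Finset.univ.biUnion fun a => Finset.univ.biUnion fun b => J₀ a b with hJdef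
  have hsub : ∀ a b, J₀ a b ⊆ J := by
    intro a b i hi
    rw [hJdef, Finset.mem_biUnion]
    exact ⟨a, Finset.mem_univ _, Finset.mem_biUnion.2 ⟨b, Finset.mem_univ _, hi⟩⟩
  set e' : Matrix (Fin q) (Fin q) (Monoid.CoprodI M → ℂ) := fun a b => push (rho J) (e a b) with he'
  have hsum' : ∀ a b, Summable fun g => ‖e' a b g‖ := fun a b => push_summable _ _ (hsum a b)
  have hidem' : ∀ a b g, ∑ k, ∑' h, e' a k h * e' k b (h⁻¹ * g) = e' a b g :=
    fun a b y => push_idem (rho J) e hsum hidem a b y
  have hclose : ∑ a, ∑ b, ∑' g, ‖e' a b g - e a b g‖ < 1 := by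
    have h1 : ∑ a : Fin q, ∑ b : Fin q, ∑' g, ‖e' a b g - e a b g‖ ≤ ∑ _a : Fin q, ∑ _b : Fin q, ε :=
      Finset.sum_le_sum fun a _ => Finset.sum_le_sum fun b _ => (hJ₀ a b J (hsub a b)).le
    have h2 : ∑ _a : Fin q, ∑ _b : Fin q, ε = (q : ℝ) * q * ε := by
      simp [mul_assoc]
    have h3 : (q : ℝ) * q * ε < 1 := by
      rw [hε, mul_one_div, div_lt_one (by positivity)]
      linarith
    linarith
  have hEq : ∀ C : ConjClasses (Monoid.CoprodI M),
      ∑' x : C.carrier, ∑ a, e' a a x = ∑' x : C.carrier, ∑ a, e a a x := fun C =>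
    trace_eq_of_l1_close e e' hsum hsum' hidem hidem' hclose C.carrier
      (Vale.Agent.Lib.P184.mul_mem_carrier_comm C)
  have hJ : ∀ i ∉ J, ∀ m : M i, m ≠ 1 →
      ∑' x : (ConjClasses.mk (of m : Monoid.CoprodI M)).carrier, ∑ a, e' a a x = 0 := by
    intro i hi m hm
    have hz : ∀ x : (ConjClasses.mk (of m : Monoid.CoprodI M)).carrier, ∑ a, e' a a x = 0 := by
      rintro ⟨x, hx⟩
      refine Finset.sum_eq_zero fun a _ => ?_
      refine push_eq_zero_of_notMem_range (rho J) (e a a) x ?_
      intro z hz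
      have hx' : IsConj x (of m) := mem_carrier_mk.1 hx
      let r : Monoid.CoprodI M →* M i := lift (Pi.mulSingle i (MonoidHom.id (M i)))
      have hr1 : r.comp (rho J) = 1 := by
        refine ext_hom _ _ fun j => ?_
        ext m'
        simp only [MonoidHom.comp_apply, MonoidHom.one_apply]
        by_cases hj : j ∈ J
        · rw [rho_of_mem J hj]
          have hji : j ≠ i := fun h => hi (h ▸ hj)
          simp only [r, lift_of, Pi.mulSingle_eq_of_ne hji, MonoidHom.one_apply]
        · rw [rho_of_notMem J hj, map_one]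
      have h1 : r x = 1 := by
        rw [← hz]
        exact DFunLike.congr_fun hr1 z
      have h2 := r.map_isConj hx'
      rw [h1, show r (of m) = m from of_leftInverse i m] at h2
      exact hm (isConj_one_iff' h2)
    rw [tsum_congr hz, tsum_zero]
  obtain ⟨F, hF1, hF2⟩ := q1_coprodI_of_support hM q e' hsum' hidem' J hJ
  exact ⟨F, hF1, fun C hC => by rw [← hEq C]; exact hF2 C hC⟩

end Vale.Agent.Lib.P184.Free
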