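import Vale.Agent.Lib.P184.Walls

/-!
# P184 / free products, module FP4: the walls of the Bass-Serre tree of a free product

FROZEN STATEMENTS (do not change them; fill the sorries).  `G = Monoid.CoprodI M` acts on `Word M` (simply transitively); `X i` is the set of reduced words whose first letter is in `M i`.

ROUTE.
* `neword_smul_empty`: `Word.prod` is injective (`Word.equiv`), `Word.prod_smul`, `Word.prod_empty`, `NeWord.prod` is `toWord.prod` by definition.
* `neword_toWord_mem`: `NeWord.toList_head?` (`Word.fstIdx w = w.toList.head?.map Sigma.fst`).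
* `of_smul_X`: for `w ∈ X j`, `i ≠ j`: `of m • w = Word.cons m w _ hm` (`Word.cons_eq_smul`), `Word.fstIdx_cons`.
* `neword_smul_X`: `lift_word_ping_pong (f := fun i => of) (X := X)` and `lift_of'` (`lift (fun i => of) = MonoidHom.id _`), or repeat its four line induction.
* `neword_smul_single`: induction on `v`.  `singleton x`: if `a ≠ i` use `of_smul_X` (`of m • empty ∈ X i`, it is `cons m empty`); if `a = i`: `of x • of m • empty = of (x * m) • empty`, which is in `X i` if `x * m ≠ 1`, and `x = m⁻¹` otherwise.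
  `append w₁ hne w₂`: by the hypothesis for `w₂ : NeWord k l`: either `w₂.prod • _ ∈ X k` and `neword_smul_X w₁ hne` applies, or `w₂.prod = of m⁻¹`, `w₂.prod • of m • empty = empty` and `w₁.prod • empty = w₁.toWord ∈ X a`.  So the left alternative always holds in this case.
* `sep_single_finite`: the set is contained in `{of m • X i}`.  Let `A = u • X j`, `empty ∈ A`, `of m • empty ∉ A`; so `m ≠ 1`, `u⁻¹ • empty ∈ X j` (`Set.mem_smul_set_iff_inv_smul_mem`), `u⁻¹ ≠ 1`; `NeWord.of_word (u⁻¹ • empty)` gives `v : NeWord M a b` with `v.toWord = u⁻¹ • empty`, so `v.prod = u⁻¹` (apply `Word.prod`), `a = j`;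
  `neword_smul_single v m` gives `u⁻¹ = of m⁻¹`; then `of m⁻¹ • empty ∈ X i`, so `j = i`, `u = of m`.
* `sep_finite`: put `D y y' := {A | A ∈ W ∧ y ∈ A ∧ y' ∉ A}`.  `D y y'' ⊆ D y y' ∪ D y' y''`; `D (u • y) (u • y') = (fun A => u • A) '' D y y'`.  `D empty (g • empty)` is finite by `Monoid.CoprodI.induction_left`
  (`D empty ((of m * x) • empty) ⊆ D empty (of m • empty) ∪ (of m • ·) '' D empty (x • empty)`).  Every `y` is `y.prod • empty`.
* `skewer`: `⊆` is `neword_smul_X w hij.symm`; `w.toWord = w.prod • empty ∈ X i` is not in `w.prod • X i` because `empty ∉ X i`.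
* `trace_vanish_of_neword`: `classical`, `trace_vanish_of_skewer e hsum hidem W W_invariant sep_finite w.prod (X i) ⟨1, i, (one_smul _ _).symm⟩ (skewer w hij)`.
-/

namespace Vale.Agent.Lib.P184.Free

open scoped BigOperators Pointwise
open Monoid.CoprodI

section

variable {ι : Type*} {M : ι → Type*} [∀ i, Group (M i)] [DecidableEq ι] [∀ i, DecidableEq (M i)]

/-- reduced words whose first letter lies in `M i` -/
def X (i : ι) : Set (Word M) := {w | w.fstIdx = some i}

/-- the half-spaces -/
def W : Set (Set (Word M)) := {A | ∃ (u : Monoid.CoprodI M) (i : ι), A = u • (X i : Set (Word M))}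

theorem neword_smul_empty {i j : ι} (w : NeWord M i j) : w.prod • (Word.empty : Word M) = w.toWord := by
  exact Word.equiv.apply_symm_apply w.toWord

theorem neword_toWord_mem {i j : ι} (w : NeWord M i j) : w.toWord ∈ (X i : Set (Word M)) := by
  show w.toWord.fstIdx = some i
  have h : w.toWord.toList = w.toList := rfl
  rw [Word.fstIdx, h, NeWord.toList_head?]
  rfl

theorem of_smul_X {i j : ι} (hij : i ≠ j) (m : M i) (hm : m ≠ 1) :
    (of m : Monoid.CoprodI M) • (X j : Set (Word M)) ⊆ X i := by
  rintro _ ⟨w, hw, rfl⟩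
  have hw' : w.fstIdx = some j := hw
  have hne : w.fstIdx ≠ some i := by
    rw [hw']
    intro h
    exact hij (Option.some.inj h).symm
  show ((of m : Monoid.CoprodI M) • w).fstIdx = some i
  rw [← Word.cons_eq_smul (h1 := hne) (h2 := hm), Word.fstIdx_cons]

theorem neword_smul_X {i j k : ι} (w : NeWord M i j) (hk : j ≠ k) :
    w.prod • (X k : Set (Word M)) ⊆ X i := by
  induction w generalizing k with
  | singleton x hne_one =>
    rw [NeWord.prod_singleton]
    exact of_smul_X hk x hne_one
  | @append i j k' l w₁ hne w₂ hIw₁ hIw₂ =>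
    rw [NeWord.append_prod, mul_smul]
    exact (Set.smul_set_mono (hIw₂ hk)).trans (hIw₁ hne)

private theorem of_smul_empty_mem {i : ι} (m : M i) (hm : m ≠ 1) :
    (of m : Monoid.CoprodI M) • (Word.empty : Word M) ∈ (X i : Set (Word M)) := by
  have h := neword_toWord_mem (NeWord.singleton m hm)
  rw [← neword_smul_empty, NeWord.prod_singleton] at h
  exact h

theorem neword_smul_single {a b : ι} (v : NeWord M a b) {i : ι} (m : M i) (hm : m ≠ 1) :
    v.prod • ((of m : Monoid.CoprodI M) • (Word.empty : Word M)) ∈ (X a : Set (Word M)) ∨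
      v.prod = of m⁻¹ := by
  induction v with
  | @singleton a x hx =>
    rw [NeWord.prod_singleton]
    by_cases hai : a = i
    · subst hai
      by_cases hxm : x * m = 1
      · right
        rw [eq_inv_of_mul_eq_one_left hxm]
      · left
        rw [← mul_smul, ← map_mul]
        exact of_smul_empty_mem _ hxm
    · left
      exact of_smul_X hai x hx ⟨_, of_smul_empty_mem m hm, rfl⟩
  | @append a j k l w₁ hne w₂ ih₁ ih₂ =>
    left
    rw [NeWord.append_prod, mul_smul]
    rcases ih₂ with h | h
    · exact neword_smul_X w₁ hne ⟨_, h, rfl⟩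
    · have h0 : (of m⁻¹ : Monoid.CoprodI M) • ((of m : Monoid.CoprodI M) • (Word.empty : Word M))
          = Word.empty := by
        rw [← mul_smul, ← map_mul, inv_mul_cancel, map_one, one_smul]
      rw [h, h0, neword_smul_empty]
      exact neword_toWord_mem w₁

theorem W_invariant (h : Monoid.CoprodI M) (A : Set (Word M)) (hA : A ∈ (W : Set (Set (Word M)))) :
    h • A ∈ (W : Set (Set (Word M))) := by
  obtain ⟨u, i, rfl⟩ := hA
  exact ⟨h * u, i, by rw [mul_smul]⟩

omit [DecidableEq ι] [∀ i, DecidableEq (M i)] in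
private theorem empty_not_mem_X (j : ι) : (Word.empty : Word M) ∉ (X j : Set (Word M)) := by
  intro h
  have h' : (Word.empty : Word M).fstIdx = some j := h
  simp [Word.fstIdx, Word.empty] at h'

omit [DecidableEq ι] [∀ i, DecidableEq (M i)] in
private theorem X_idx_eq {a j : ι} {y : Word M} (h1 : y ∈ (X a : Set (Word M)))
    (h2 : y ∈ (X j : Set (Word M))) : a = j := by
  have h1' : y.fstIdx = some a := h1
  have h2' : y.fstIdx = some j := h2
  rw [h1'] at h2'
  exact Option.some.inj h2'

theorem sep_single_finite {i : ι} (m : M i) :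
    {A : Set (Word M) | A ∈ (W : Set (Set (Word M))) ∧ Word.empty ∈ A ∧
      (of m : Monoid.CoprodI M) • (Word.empty : Word M) ∉ A}.Finite := by
  apply Set.Finite.subset (Set.finite_singleton ((of m : Monoid.CoprodI M) • (X i : Set (Word M))))
  rintro A ⟨⟨u, j, rfl⟩, he, hm⟩
  rw [Set.mem_singleton_iff]
  have hm1 : m ≠ 1 := by
    rintro rfl
    apply hm
    rw [map_one, one_smul]
    exact he
  have he' : u⁻¹ • (Word.empty : Word M) ∈ (X j : Set (Word M)) :=
    Set.mem_smul_set_iff_inv_smul_mem.mp he
  have hne : u⁻¹ • (Word.empty : Word M) ≠ Word.empty := by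
    intro h
    rw [h] at he'
    exact empty_not_mem_X j he'
  obtain ⟨a, b, v, hv⟩ := NeWord.of_word _ hne
  have hvp : v.prod = u⁻¹ := by
    have : v.prod = v.toWord.prod := rfl
    rw [this, hv, Word.prod_smul, Word.prod_empty, mul_one]
  have haj : a = j := by
    have h1 := neword_toWord_mem v
    rw [hv] at h1
    exact X_idx_eq h1 he'
  subst haj
  rcases neword_smul_single v m hm1 with h | h
  · exfalso
    apply hm
    rw [hvp] at h
    exact Set.mem_smul_set_iff_inv_smul_mem.mpr h
  · rw [hvp, map_inv, inv_inj] at h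
    have hm1' : m⁻¹ ≠ 1 := by simpa using hm1
    have h2 : u⁻¹ • (Word.empty : Word M) ∈ (X i : Set (Word M)) := by
      have h3 := neword_toWord_mem (NeWord.singleton m⁻¹ hm1')
      rw [← neword_smul_empty, NeWord.prod_singleton, map_inv, ← h] at h3
      exact h3
    have hai : a = i := X_idx_eq he' h2
    subst hai
    rw [h]

private theorem sep_empty_finite (g : Monoid.CoprodI M) :
    {A : Set (Word M) | A ∈ (W : Set (Set (Word M))) ∧ Word.empty ∈ A ∧
      g • (Word.empty : Word M) ∉ A}.Finite := by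
  induction g using Monoid.CoprodI.induction_left with
  | one =>
    apply Set.Finite.subset Set.finite_empty
    rintro A ⟨-, h1, h2⟩
    rw [one_smul] at h2
    exact h2 h1
  | mul m x ih =>
    apply Set.Finite.subset ((sep_single_finite m).union
      (ih.image (fun A => (of m : Monoid.CoprodI M) • A)))
    rintro A ⟨hW, h1, h2⟩
    by_cases hmA : (of m : Monoid.CoprodI M) • (Word.empty : Word M) ∈ A
    · right
      refine ⟨(of m : Monoid.CoprodI M)⁻¹ • A, ⟨W_invariant _ _ hW, ?_, ?_⟩, ?_⟩
      · rw [Set.mem_smul_set_iff_inv_smul_mem, inv_inv]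
        exact hmA
      · rw [Set.mem_smul_set_iff_inv_smul_mem, inv_inv, ← mul_smul]
        exact h2
      · simp
    · left
      exact ⟨hW, h1, hmA⟩

theorem sep_finite (y y' : Word M) :
    {A : Set (Word M) | A ∈ (W : Set (Set (Word M))) ∧ y ∈ A ∧ y' ∉ A}.Finite := by
  have hy : y.prod • (Word.empty : Word M) = y := Word.equiv.apply_symm_apply y
  have hy' : y'.prod • (Word.empty : Word M) = y' := Word.equiv.apply_symm_apply y'
  apply Set.Finite.subset ((sep_empty_finite (y.prod⁻¹ * y'.prod)).image
    (fun A => y.prod • A))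
  rintro A ⟨hW, h1, h2⟩
  refine ⟨y.prod⁻¹ • A, ⟨W_invariant _ _ hW, ?_, ?_⟩, ?_⟩
  · rw [Set.mem_smul_set_iff_inv_smul_mem, inv_inv, hy]
    exact h1
  · rw [Set.mem_smul_set_iff_inv_smul_mem, inv_inv, ← mul_smul, mul_inv_cancel_left, hy']
    exact h2
  · simp

theorem skewer {i j : ι} (w : NeWord M i j) (hij : i ≠ j) :
    w.prod • (X i : Set (Word M)) ⊂ X i := by
  have hsub : w.prod • (X i : Set (Word M)) ⊆ X i := neword_smul_X w hij.symm
  refine (Set.ssubset_iff_of_subset hsub).2 ⟨w.toWord, neword_toWord_mem w, ?_⟩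
  intro h
  rw [Set.mem_smul_set_iff_inv_smul_mem, ← neword_smul_empty, inv_smul_smul] at h
  exact empty_not_mem_X i h

end

theorem trace_vanish_of_neword {ι : Type*} {M : ι → Type*} [∀ i, Group (M i)] {q : ℕ}
    (e : Matrix (Fin q) (Fin q) (Monoid.CoprodI M → ℂ))
    (hsum : ∀ i j, Summable fun g => ‖e i j g‖)
    (hidem : ∀ i j g, ∑ k, ∑' h, e i k h * e k j (h⁻¹ * g) = e i j g)
    {i j : ι} (w : NeWord M i j) (hij : i ≠ j) :
    ∑' x : (ConjClasses.mk w.prod).carrier, ∑ k, e k k x = 0 := by
  classical
  exact trace_vanish_of_skewer e hsum hidem W W_invariant sep_finite w.prod (X i)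
    ⟨1, i, (one_smul _ _).symm⟩ (skewer w hij)

end Vale.Agent.Lib.P184.Free
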