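import Mathlib

/-!
# P184 / free products, module FP2: summing over a conjugation invariant set class by class

Proved.

ROUTE.  `∑' x : S, f x = ∑' x : G, S.indicator f x` (`tsum_subtype`).  Sum over the fibres of `ConjClasses.mk` (`Equiv.sigmaFiberEquiv ConjClasses.mk`, `Summable.tsum_sigma'`; `x ∈ C.carrier ↔ ConjClasses.mk x = C` is `ConjClasses.mem_carrier_iff_mk_eq`):
`∑' x, S.indicator f x = ∑' C : ConjClasses G, ∑' x : C.carrier, S.indicator f x`.  If `C` meets `S` then `C.carrier ⊆ S` by `hS`, so the inner sum is `∑' x : C.carrier, f x`, which is `0` for `C ≠ C₀` by `hvan`;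
if `C` does not meet `S` the inner sum is `0`.  Conclude with `tsum_eq_single C₀`.
-/

namespace Vale.Agent.Lib.P184.Free

open scoped BigOperators

theorem tsum_eq_of_classes {G : Type*} [Group G] (f : G → ℂ) (hf : Summable fun g => ‖f g‖) (S : Set G)
    (hS : ∀ x ∈ S, ∀ u : G, u * x * u⁻¹ ∈ S) (C₀ : ConjClasses G) (h₀ : C₀.carrier ⊆ S)
    (hvan : ∀ C : ConjClasses G, C ≠ C₀ → (∃ x ∈ C.carrier, x ∈ S) → ∑' x : C.carrier, f x = 0) :
    ∑' x : S, f x = ∑' x : C₀.carrier, f x := by
  classical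
  have hfs : Summable f := hf.of_norm
  have hF : Summable (S.indicator f) := hfs.indicator S
  have hT : ∀ C : ConjClasses G, {x : G | ConjClasses.mk x = C} = C.carrier := by
    intro C
    ext x
    exact ConjClasses.mem_carrier_iff_mk_eq.symm
  -- inner sums
  have hinner : ∀ C : ConjClasses G, (∃ x ∈ C.carrier, x ∈ S) →
      ∑' x : C.carrier, S.indicator f x = ∑' x : C.carrier, f x := by
    rintro C ⟨x, hxC, hxS⟩
    apply tsum_congr
    rintro ⟨y, hy⟩
    have hyS : y ∈ S := by
      have h1 : ConjClasses.mk x = ConjClasses.mk y := by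
        rw [ConjClasses.mem_carrier_iff_mk_eq.1 hxC, ConjClasses.mem_carrier_iff_mk_eq.1 hy]
      obtain ⟨u, hu⟩ := isConj_iff.1 (ConjClasses.mk_eq_mk_iff_isConj.1 h1)
      rw [← hu]
      exact hS x hxS u
    simp [hyS]
  have hinner0 : ∀ C : ConjClasses G, ¬ (∃ x ∈ C.carrier, x ∈ S) →
      ∑' x : C.carrier, S.indicator f x = 0 := by
    intro C hC
    have : ∀ x : C.carrier, S.indicator f x = 0 := by
      rintro ⟨y, hy⟩
      have hyS : y ∉ S := fun h => hC ⟨y, hy, h⟩
      simp [hyS]
    simp [this]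
  have step1 : ∑' x : S, f x = ∑' x, S.indicator f x := tsum_subtype S f
  have step2 : ∑' x, S.indicator f x
      = ∑' C : ConjClasses G, ∑' x : C.carrier, S.indicator f x := by
    let e := (Equiv.sigmaFiberEquiv (ConjClasses.mk : G → ConjClasses G))
    have h1 : ∑' x, S.indicator f x = ∑' p, S.indicator f (e p) := (e.tsum_eq _).symm
    have h2 : Summable fun p => S.indicator f (e p) := (e.summable_iff).2 hF
    rw [h1, h2.tsum_sigma]
    apply tsum_congr
    intro C
    show ∑' x : ({x : G | ConjClasses.mk x = C} : Set G), S.indicator f x = _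
    rw [hT C]
  rw [step1, step2, tsum_eq_single C₀]
  · obtain ⟨x, hx⟩ : ∃ x, x ∈ C₀.carrier := by
      obtain ⟨a, ha⟩ := ConjClasses.exists_rep C₀
      exact ⟨a, ConjClasses.mem_carrier_iff_mk_eq.2 ha⟩
    exact hinner C₀ ⟨x, hx, h₀ hx⟩
  · intro C hC
    by_cases hm : ∃ x ∈ C.carrier, x ∈ S
    · rw [hinner C hm]
      exact hvan C hC hm
    · exact hinner0 C hm

end Vale.Agent.Lib.P184.Free
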