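import Mathlib

/-!
# P184 / free products, module FP1: push-forward of `ℓ¹` functions along a group homomorphism

FROZEN STATEMENTS (do not change them; fill the sorries; private helper lemmas are welcome).

ROUTE.  `Equiv.sigmaFiberEquiv r : (Σ y, {x // r x = y}) ≃ G`.
* `push_summable`: `‖push r a y‖ ≤ ∑' x : {x // r x = y}, ‖a x‖` (`norm_tsum_le_tsum_norm`), and the right side is summable in `y`
  (`Summable.sigma` for the summable family `‖a ·‖` transported by `sigmaFiberEquiv`).
* `push_tsum`: both sides are sums of `a` over `{x | r x ∈ S}`: use `Summable.tsum_sigma'` (or `HasSum.sigma`) for the equivalence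
  `(Σ y : S, {x // r x = y}) ≃ r ⁻¹' S`.
* `push_conv`: `∑' h, (∑' x ∈ fibre h, a x) * (∑' x' ∈ fibre (h⁻¹ y), b x') = ∑' (x, x') with r (x x') = y, a x * b x' = ∑' z ∈ fibre y, ∑' k, a k * b (k⁻¹ z)`;
  everything is absolutely summable because `∑ ‖a x‖ ‖b x'‖ < ∞` on `G × G` (`Summable.mul_of_nonneg`, `Summable.mul_norm`).
  One possible organisation: the family `F (k, z) := a k * b (k⁻¹ * z)` is summable on `G × G` (shear `(k, x') ↦ (k, k x')`); restrict it to `{(k, z) | r z = y}` and sum it in the two orders.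
* `push_finset_sum`: `Summable.tsum_finsetSum` (`tsum_finsetSum`) on each fibre.
* `push_idem`: from `push_conv`, `push_finset_sum`, `hidem` (`conv_summable` gives the summability needed for `push_finset_sum`).
-/

namespace Vale.Agent.Lib.P184.Free

open scoped BigOperators

variable {G H : Type*} [Group G] [Group H]

/-- push-forward of a function along a homomorphism: sum over the fibres -/
noncomputable def push (r : G →* H) (a : G → ℂ) : H → ℂ := fun y => ∑' x : {x : G // r x = y}, a x

private lemma fib_summable (r : G →* H) (a : G → ℂ) (ha : Summable fun g => ‖a g‖) (y : H) :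
    Summable fun x : {x : G // r x = y} => ‖a x‖ :=
  ha.subtype _

private lemma fib_summable' (r : G →* H) (a : G → ℂ) (ha : Summable fun g => ‖a g‖) (y : H) :
    Summable fun x : {x : G // r x = y} => a x :=
  (fib_summable r a ha y).of_norm

private lemma push_total (r : G →* H) (b : G → ℂ) (hb : Summable fun g => ‖b g‖) :
    ∑' y, push r b y = ∑' x, b x := by
  have hb' : Summable (fun p : Σ y : H, {x : G // r x = y} => b p.2) :=
    ((Equiv.sigmaFiberEquiv r).summable_iff (f := b)).mpr hb.of_norm
  have h1 : ∑' x, b x = ∑' p : Σ y : H, {x : G // r x = y}, b p.2 :=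
    ((Equiv.sigmaFiberEquiv r).tsum_eq b).symm
  rw [h1, hb'.tsum_sigma]
  rfl

private lemma norm_push_le (r : G →* H) (b : G → ℂ) (hb : Summable fun g => ‖b g‖) (y : H) :
    ‖push r b y‖ ≤ ∑' x, ‖b x‖ :=
  (norm_tsum_le_tsum_norm (fib_summable r b hb y)).trans
    (hb.tsum_subtype_le _ _ (fun _ => norm_nonneg _))

theorem push_summable (r : G →* H) (a : G → ℂ) (ha : Summable fun g => ‖a g‖) :
    Summable fun y => ‖push r a y‖ := by
  have ha' : Summable (fun p : Σ y : H, {x : G // r x = y} => ‖a p.2‖) :=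
    ((Equiv.sigmaFiberEquiv r).summable_iff (f := fun g => ‖a g‖)).mpr ha
  exact Summable.of_nonneg_of_le (fun _ => norm_nonneg _)
    (fun y => norm_tsum_le_tsum_norm (fib_summable r a ha y)) ha'.sigma

theorem push_tsum (r : G →* H) (a : G → ℂ) (ha : Summable fun g => ‖a g‖) (S : Set H) :
    ∑' y : S, push r a y = ∑' x : (r ⁻¹' S : Set G), a x := by
  classical
  rw [tsum_subtype S (push r a), tsum_subtype (r ⁻¹' S) a]
  have hb : Summable fun g => ‖(r ⁻¹' S).indicator a g‖ := by
    refine Summable.of_nonneg_of_le (fun _ => norm_nonneg _) (fun g => ?_) ha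
    by_cases hg : g ∈ r ⁻¹' S
    · rw [Set.indicator_of_mem hg]
    · rw [Set.indicator_of_notMem hg]
      simp
  rw [← push_total r _ hb]
  refine tsum_congr fun y => ?_
  by_cases hy : y ∈ S
  · rw [Set.indicator_of_mem hy]
    unfold push
    refine tsum_congr fun x => ?_
    have : (x : G) ∈ r ⁻¹' S := by
      rw [Set.mem_preimage, x.2]; exact hy
    rw [Set.indicator_of_mem this]
  · rw [Set.indicator_of_notMem hy]
    unfold push
    have : ∀ x : {x : G // r x = y}, (r ⁻¹' S).indicator a x = 0 := by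
      intro x
      apply Set.indicator_of_notMem
      rw [Set.mem_preimage, x.2]; exact hy
    simp only [this, tsum_zero]

private lemma shear_summable (a b : G → ℂ) (ha : Summable fun g => ‖a g‖)
    (hb : Summable fun g => ‖b g‖) :
    Summable fun p : G × G => ‖a p.1 * b (p.1⁻¹ * p.2)‖ := by
  have h0 : Summable fun p : G × G => ‖a p.1‖ * ‖b p.2‖ :=
    Summable.mul_of_nonneg ha hb (fun _ => norm_nonneg _) (fun _ => norm_nonneg _)
  let e : G × G ≃ G × G := Equiv.prodShear (Equiv.refl G) (fun k => Equiv.mulLeft k)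
  refine (e.summable_iff (f := fun p : G × G => ‖a p.1 * b (p.1⁻¹ * p.2)‖)).mp ?_
  refine h0.congr fun p => ?_
  simp [e, Equiv.prodShear]

theorem conv_summable (a b : G → ℂ) (ha : Summable fun g => ‖a g‖) (hb : Summable fun g => ‖b g‖) :
    Summable fun g => ‖∑' k, a k * b (k⁻¹ * g)‖ := by
  have hF := shear_summable a b ha hb
  have h1 : Summable fun z : G => ∑' k : G, ‖a k * b (k⁻¹ * z)‖ := hF.prod_symm.prod
  refine Summable.of_nonneg_of_le (fun _ => norm_nonneg _) (fun z => ?_) h1
  exact norm_tsum_le_tsum_norm (hF.prod_symm.prod_factor z)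

private def fibShift (r : G →* H) (k : G) (y : H) :
    {x : G // r x = (r k)⁻¹ * y} ≃ {z : G // r z = y} where
  toFun x := ⟨k * x, by rw [map_mul, x.2, mul_inv_cancel_left]⟩
  invFun z := ⟨k⁻¹ * z, by rw [map_mul, map_inv, z.2]⟩
  left_inv x := by simp
  right_inv z := by simp

theorem push_conv (r : G →* H) (a b : G → ℂ) (ha : Summable fun g => ‖a g‖)
    (hb : Summable fun g => ‖b g‖) (y : H) :
    ∑' h : H, push r a h * push r b (h⁻¹ * y) = push r (fun g => ∑' k, a k * b (k⁻¹ * g)) y := by
  have hF := (shear_summable a b ha hb).of_norm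
  -- step 1: swap the two sums on the right
  have hsw : Summable (Function.uncurry
      (fun (k : G) (z : {z : G // r z = y}) => a k * b (k⁻¹ * z))) := by
    have hinj : Function.Injective
        (fun p : G × {z : G // r z = y} => ((p.1, (p.2 : G)) : G × G)) := by
      rintro ⟨k, z⟩ ⟨k', z'⟩ h
      simp only [Prod.mk.injEq] at h
      exact Prod.ext h.1 (Subtype.ext h.2)
    have h := hF.comp_injective hinj
    refine h.congr ?_
    rintro ⟨k, z⟩
    rfl
  have h1 : push r (fun g => ∑' k, a k * b (k⁻¹ * g)) y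
      = ∑' k : G, ∑' z : {z : G // r z = y}, a k * b (k⁻¹ * z) := by
    unfold push
    exact hsw.tsum_comm
  -- step 2: inner sum
  have h2 : ∀ k : G, ∑' z : {z : G // r z = y}, a k * b (k⁻¹ * z)
      = a k * push r b ((r k)⁻¹ * y) := by
    intro k
    rw [tsum_mul_left]
    congr 1
    unfold push
    rw [← (fibShift r k y).tsum_eq]
    refine tsum_congr fun x => ?_
    simp [fibShift]
  -- step 3: regroup by fibres
  have hc : Summable fun k => ‖a k * push r b ((r k)⁻¹ * y)‖ := by
    refine Summable.of_nonneg_of_le (fun _ => norm_nonneg _) (fun k => ?_)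
      (ha.mul_right (∑' x, ‖b x‖))
    rw [norm_mul]
    exact mul_le_mul_of_nonneg_left (norm_push_le r b hb _) (norm_nonneg _)
  rw [h1]
  simp only [h2]
  rw [← push_total r _ hc]
  refine tsum_congr fun h => ?_
  have h3 : push r (fun k => a k * push r b ((r k)⁻¹ * y)) h
      = ∑' k : {x : G // r x = h}, a k * push r b (h⁻¹ * y) := by
    change (∑' k : {x : G // r x = h}, a k * push r b ((r k)⁻¹ * y)) = _
    refine tsum_congr fun k => ?_
    rw [k.2]
  rw [h3, tsum_mul_right]
  rfl

theorem push_finset_sum {κ : Type*} (s : Finset κ) (r : G →* H) (f : κ → G → ℂ)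
    (hf : ∀ k ∈ s, Summable fun g => ‖f k g‖) (y : H) :
    push r (fun g => ∑ k ∈ s, f k g) y = ∑ k ∈ s, push r (f k) y := by
  unfold push
  exact Summable.tsum_finsetSum fun k hk => fib_summable' r (f k) (hf k hk) y

theorem push_idem {q : ℕ} (r : G →* H) (e : Matrix (Fin q) (Fin q) (G → ℂ))
    (hsum : ∀ i j, Summable fun g => ‖e i j g‖)
    (hidem : ∀ i j g, ∑ k, ∑' h, e i k h * e k j (h⁻¹ * g) = e i j g) (i j : Fin q) (y : H) :
    ∑ k, ∑' h, push r (e i k) h * push r (e k j) (h⁻¹ * y) = push r (e i j) y := by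
  have h1 : ∀ k, ∑' h, push r (e i k) h * push r (e k j) (h⁻¹ * y)
      = push r (fun g => ∑' h, e i k h * e k j (h⁻¹ * g)) y :=
    fun k => push_conv r (e i k) (e k j) (hsum i k) (hsum k j) y
  simp only [h1]
  rw [← push_finset_sum Finset.univ r (fun k g => ∑' h, e i k h * e k j (h⁻¹ * g))
    (fun k _ => conv_summable (e i k) (e k j) (hsum i k) (hsum k j)) y]
  congr 1
  funext g
  exact hidem i j g

end Vale.Agent.Lib.P184.Free
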