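import Vale.Agent.Lib.P184.Free.FMain
import Vale.Agent.Lib.P184.Geo.Trace
import Vale.Agent.Lib.P184.Geo.Bolic

/-!
# P184: the retraction principle, and direct products
-/

namespace Vale.Agent.Lib.P184.Free

open scoped BigOperators

/-- **Retraction principle.**  `H` is a retract of `G`, Q1 holds for `H`, and the trace of `e` vanishes at all classes of `G` which do not meet `H`. -/
theorem q1_of_retraction {G H : Type*} [Group G] [Group H] (s : H →* G) (r : G →* H)
    (hrs : ∀ h, r (s h) = h)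
    (hH : ∀ (q : ℕ) (e : Matrix (Fin q) (Fin q) (H → ℂ)),
      (∀ a b, Summable fun g => ‖e a b g‖) →
      (∀ a b g, ∑ k, ∑' h, e a k h * e k b (h⁻¹ * g) = e a b g) →
      ∃ F : Finset (ConjClasses H), (∀ C ∈ F, ∀ x ∈ C.carrier, IsOfFinOrder x) ∧
        ∀ C ∉ F, ∑' x : C.carrier, ∑ a, e a a x = 0)
    (q : ℕ) (e : Matrix (Fin q) (Fin q) (G → ℂ))
    (hsum : ∀ a b, Summable fun g => ‖e a b g‖)
    (hidem : ∀ a b g, ∑ k, ∑' h, e a k h * e k b (h⁻¹ * g) = e a b g)
    (hkill : ∀ g : G, (∀ h : H, ¬ IsConj g (s h)) →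
      ∑' x : (ConjClasses.mk g).carrier, ∑ a, e a a x = 0) :
    ∃ F : Finset (ConjClasses G), (∀ C ∈ F, ∀ x ∈ C.carrier, IsOfFinOrder x) ∧
      ∀ C ∉ F, ∑' x : C.carrier, ∑ a, e a a x = 0 := by
  classical
  obtain ⟨F, hFfin, hFvan⟩ := hH q (fun a b => push r (e a b))
    (fun a b => push_summable _ _ (hsum a b)) (fun a b y => push_idem r e hsum hidem a b y)
  refine ⟨F.image (ConjClasses.map s), ?_, ?_⟩
  · intro C hC x hx
    obtain ⟨D, hD, rfl⟩ := Finset.mem_image.1 hC
    obtain ⟨d, rfl⟩ := ConjClasses.exists_rep D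
    have hd : IsOfFinOrder d := hFfin _ hD d ConjClasses.mem_carrier_mk
    have hx' : x ∈ (ConjClasses.mk (s d)).carrier := hx
    exact isOfFinOrder_of_isConj (mem_carrier_mk.1 hx') (MonoidHom.isOfFinOrder _ hd)
  · intro C hC
    obtain ⟨g, rfl⟩ := ConjClasses.exists_rep C
    by_cases hg : ∀ h : H, ¬ IsConj g (s h)
    · exact hkill g hg
    push Not at hg
    obtain ⟨m, hm⟩ := hg
    have h1 : ConjClasses.mk g = ConjClasses.mk (s m) := ConjClasses.mk_eq_mk_iff_isConj.2 hm
    rw [h1] at hC ⊢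
    have hD : ConjClasses.mk m ∉ F := by
      intro hmem
      exact hC (Finset.mem_image.2 ⟨_, hmem, rfl⟩)
    have h0 := hFvan _ hD
    set f : G → ℂ := fun x => ∑ a, e a a x with hf
    have hfs : Summable fun g => ‖f g‖ := by
      refine Summable.of_nonneg_of_le (fun _ => norm_nonneg _) (fun g => norm_sum_le _ _)
        (summable_sum fun a _ => hsum a a)
    have h2 : ∀ y, push r f y = ∑ a, push r (e a a) y := fun y =>
      push_finset_sum Finset.univ r (fun a => e a a) (fun a _ => hsum a a) y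
    have h3 : ∑' y : (ConjClasses.mk m).carrier, push r f y = 0 := by
      rw [← h0]
      exact tsum_congr fun y => h2 y
    rw [push_tsum r f hfs] at h3
    rw [← h3]
    symm
    refine tsum_eq_of_classes f hfs _ ?_ _ ?_ ?_
    · intro x hx v
      have hx' : IsConj (r x) m := mem_carrier_mk.1 hx
      show r (v * x * v⁻¹) ∈ (ConjClasses.mk m).carrier
      rw [mem_carrier_mk, map_mul, map_mul, map_inv]
      refine IsConj.trans ?_ hx'
      rw [isConj_comm, isConj_iff]
      exact ⟨r v, rfl⟩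
    · intro x hx
      have hx' : IsConj x (s m) := mem_carrier_mk.1 hx
      show r x ∈ (ConjClasses.mk m).carrier
      rw [mem_carrier_mk]
      have := r.map_isConj hx'
      rwa [hrs] at this
    · rintro C' hne ⟨x, hxC, hxS⟩
      have hxS' : IsConj (r x) m := mem_carrier_mk.1 hxS
      have hC' : ConjClasses.mk x = C' := ConjClasses.mem_carrier_iff_mk_eq.1 hxC
      subst hC'
      by_cases hx : ∀ h : H, ¬ IsConj x (s h)
      · exact hkill x hx
      exfalso
      push Not at hx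
      obtain ⟨m', hm'⟩ := hx
      have h4 := r.map_isConj hm'
      rw [hrs] at h4
      apply hne
      rw [ConjClasses.mk_eq_mk_iff_isConj]
      exact hm'.trans (s.map_isConj (h4.symm.trans hxS'))

/-- direct products with a group all of whose nontrivial elements have positive translation length on a CN space -/
theorem q1_prod {H K : Type*} [Group H] [Group K] {X : Type*} [MetricSpace X] [MulAction K X]
    (hiso : ∀ (k : K) (x y : X), dist (k • x) (k • y) = dist x y) (hCN : Geo.CN X)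
    (hK : ∀ k : K, k ≠ 1 → ∃ (o : X) (c : ℝ), 0 < c ∧ ∀ n : ℕ, c * n ≤ dist o (k ^ n • o))
    (hH : ∀ (q : ℕ) (e : Matrix (Fin q) (Fin q) (H → ℂ)),
      (∀ a b, Summable fun g => ‖e a b g‖) →
      (∀ a b g, ∑ k, ∑' h, e a k h * e k b (h⁻¹ * g) = e a b g) →
      ∃ F : Finset (ConjClasses H), (∀ C ∈ F, ∀ x ∈ C.carrier, IsOfFinOrder x) ∧
        ∀ C ∉ F, ∑' x : C.carrier, ∑ a, e a a x = 0)
    (q : ℕ) (e : Matrix (Fin q) (Fin q) (H × K → ℂ))
    (hsum : ∀ a b, Summable fun g => ‖e a b g‖)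
    (hidem : ∀ a b g, ∑ k, ∑' h, e a k h * e k b (h⁻¹ * g) = e a b g) :
    ∃ F : Finset (ConjClasses (H × K)), (∀ C ∈ F, ∀ x ∈ C.carrier, IsOfFinOrder x) ∧
      ∀ C ∉ F, ∑' x : C.carrier, ∑ a, e a a x = 0 := by
  refine q1_of_retraction (MonoidHom.inl H K) (MonoidHom.fst H K) (fun h => rfl) hH q e hsum hidem ?_
  rintro ⟨h, k⟩ hg
  have hk : k ≠ 1 := by
    rintro rfl
    exact hg h (IsConj.refl _)
  obtain ⟨o, c, hc0, hc⟩ := hK k hk
  letI : MulAction (H × K) X := MulAction.compHom X (MonoidHom.snd H K)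
  have hiso' : ∀ (g : H × K) (x y : X), dist (g • x) (g • y) = dist x y := fun g x y => hiso g.2 x y
  refine Geo.trace_vanish_of_b1 e hsum hidem hiso' (Geo.b1_of_cn hCN) (h, k) o c hc0 ?_
  intro n
  exact hc n

end Vale.Agent.Lib.P184.Free
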