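import Mathlib

/-!
# P184 / free products, module FP3: every element of a free product is trivial, conjugate into a factor, or conjugate to a cyclically reduced word

FROZEN STATEMENT (unchanged; proof filled in by helper7; helper lemmas are private).

ROUTE.  Work with lists.  For `L : List (Σ i, M i)` put `lp L := (L.map fun p => of p.2).prod` (this is `Word.prod` for `L = w.toList`).  Call `L` reduced if `∀ p ∈ L, p.2 ≠ 1` and `L.IsChain (fun p p' => p.1 ≠ p'.1)` (the two fields of `Word`).
Claim, by strong induction on `L.length`: for `L` reduced, `lp L = 1`, or `lp L` is conjugate to some `of m`, or `lp L` is conjugate to `lp L'` with `L'` reduced, `L' = a :: (mid ++ [b])`, `a.1 ≠ b.1`.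
* `L = []`: `1`.  `L = [a]`: `of a.2`.
* `L = a :: (mid ++ [b])` (`List.eq_nil_or_concat`): if `a.1 ≠ b.1` done (`u = 1`).  If `a.1 = b.1` (then `mid ≠ []` by the chain condition; destructure `a = ⟨i, x⟩`, `b = ⟨i, z⟩`):
  `lp L = of x * lp mid * of z = of x * (lp mid * of (z * x)) * (of x)⁻¹`.  If `z * x = 1` use the induction hypothesis for `mid`; otherwise for `mid ++ [⟨i, z * x⟩]` (reduced: same indices as `mid ++ [b]`).
Conjugacy is transitive: `g = u * g' * u⁻¹`, `g' = v * g'' * v⁻¹` give `g = (u * v) * g'' * (u * v)⁻¹`.
Finally every `g` is `lp (Word.equiv g).toList` (`Word.equiv.symm_apply_apply`, needs `classical`), and a reduced `L' = a :: (mid ++ [b])` is `w.toList` for a `Word` `w ≠ empty`; `NeWord.of_word` gives `w' : NeWord M i j` with `w'.toWord = w`; `NeWord.toList_head?` and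
`NeWord.toList_getLast?` identify `i = a.1`, `j = b.1`; `w'.prod = w'.toWord.prod` by definition.
-/

namespace Vale.Agent.Lib.P184.Free

open Monoid.CoprodI

section aux

variable {ι : Type*} {M : ι → Type*} [∀ i, Group (M i)]

private def lp (L : List (Σ i, M i)) : Monoid.CoprodI M := (L.map fun p => of p.2).prod

private def Red (L : List (Σ i, M i)) : Prop :=
  (∀ p ∈ L, p.2 ≠ 1) ∧ L.IsChain (fun p p' => p.1 ≠ p'.1)

private theorem lp_ends (a b : Σ i, M i) (mid : List (Σ i, M i)) :
    lp (a :: (mid ++ [b])) = of a.2 * lp mid * of b.2 := by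
  simp [lp, mul_assoc]

private theorem lp_concat (b : Σ i, M i) (mid : List (Σ i, M i)) :
    lp (mid ++ [b]) = lp mid * of b.2 := by
  simp [lp]

private theorem list_tri : ∀ (n : ℕ) (L : List (Σ i, M i)), L.length ≤ n → Red L →
    lp L = 1 ∨ (∃ (i : ι) (m : M i) (u : Monoid.CoprodI M), lp L = u * of m * u⁻¹) ∨
    (∃ (a b : Σ i, M i) (mid : List (Σ i, M i)) (u : Monoid.CoprodI M),
      Red (a :: (mid ++ [b])) ∧ a.1 ≠ b.1 ∧ lp L = u * lp (a :: (mid ++ [b])) * u⁻¹) := by
  intro n
  induction n with
  | zero =>
    intro L hL _
    left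
    have : L = [] := List.eq_nil_of_length_eq_zero (by omega)
    subst this; rfl
  | succ n ih =>
    intro L hL hR
    rcases L with _ | ⟨a, T⟩
    · left; rfl
    · rcases List.eq_nil_or_concat T with rfl | ⟨mid, b, rfl⟩
      · right; left
        exact ⟨a.1, a.2, 1, by simp [lp]⟩
      · rw [List.concat_eq_append] at hL hR ⊢
        by_cases hab : a.1 = b.1
        · obtain ⟨i, x⟩ := a
          obtain ⟨j, z⟩ := b
          simp only at hab
          subst hab
          have hlen : mid.length + 1 ≤ n := by
            simp only [List.length_cons, List.length_append, List.length_nil] at hL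
            omega
          have hch : (mid ++ [(⟨i, z⟩ : Σ i, M i)]).IsChain (fun p p' => p.1 ≠ p'.1) :=
            (List.isChain_cons.1 hR.2).2
          have hmidR : Red mid := by
            refine ⟨fun p hp => hR.1 p (by simp [hp]), hch.left_of_append⟩
          -- the transfer of a conjugacy statement
          have key : ∀ g' : Monoid.CoprodI M,
              lp ((⟨i, x⟩ : Σ i, M i) :: (mid ++ [⟨i, z⟩])) = of x * g' * (of x)⁻¹ →
              (g' = 1 ∨ (∃ (i : ι) (m : M i) (u : Monoid.CoprodI M), g' = u * of m * u⁻¹) ∨
                (∃ (a b : Σ i, M i) (mid : List (Σ i, M i)) (u : Monoid.CoprodI M),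
                  Red (a :: (mid ++ [b])) ∧ a.1 ≠ b.1 ∧ g' = u * lp (a :: (mid ++ [b])) * u⁻¹)) →
              (lp ((⟨i, x⟩ : Σ i, M i) :: (mid ++ [⟨i, z⟩])) = 1 ∨
                (∃ (i' : ι) (m : M i') (u : Monoid.CoprodI M),
                  lp ((⟨i, x⟩ : Σ i, M i) :: (mid ++ [⟨i, z⟩])) = u * of m * u⁻¹) ∨
                (∃ (a b : Σ i, M i) (mid' : List (Σ i, M i)) (u : Monoid.CoprodI M),
                  Red (a :: (mid' ++ [b])) ∧ a.1 ≠ b.1 ∧
                  lp ((⟨i, x⟩ : Σ i, M i) :: (mid ++ [⟨i, z⟩]))
                    = u * lp (a :: (mid' ++ [b])) * u⁻¹)) := by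
            intro g' e h
            rcases h with h | ⟨i', m, u, h⟩ | ⟨a, b, mid', u, h1, h2, h⟩
            · left; rw [e, h]; simp
            · right; left
              refine ⟨i', m, of x * u, ?_⟩
              rw [e, h]; simp [mul_assoc]
            · right; right
              refine ⟨a, b, mid', of x * u, h1, h2, ?_⟩
              rw [e, h]; simp [mul_assoc]
          by_cases hzx : z * x = 1
          · refine key (lp mid) ?_ (ih mid (by omega) hmidR)
            rw [lp_ends]
            have : (of z : Monoid.CoprodI M) = (of x)⁻¹ := by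
              rw [eq_inv_iff_mul_eq_one, ← map_mul, hzx, map_one]
            simp [this]
          · refine key (lp (mid ++ [(⟨i, z * x⟩ : Σ i, M i)])) ?_
              (ih (mid ++ [(⟨i, z * x⟩ : Σ i, M i)]) (by simp; omega) ?_)
            · rw [lp_ends, lp_concat]
              simp [mul_assoc]
            · refine ⟨?_, ?_⟩
              · intro p hp
                rcases List.mem_append.1 hp with hp | hp
                · exact hmidR.1 p hp
                · have : p = ⟨i, z * x⟩ := by simpa using hp
                  subst this; exact hzx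
              · rw [List.isChain_append] at hch ⊢
                refine ⟨hch.1, List.isChain_singleton _, ?_⟩
                intro p hp q hq
                have hq' : q = ⟨i, z * x⟩ := by simpa using hq.symm
                subst hq'
                exact hch.2.2 p hp ⟨i, z⟩ (by simp)
        · right; right
          exact ⟨a, b, mid, 1, hR, hab, by simp⟩

end aux

theorem trichotomy {ι : Type*} {M : ι → Type*} [∀ i, Group (M i)] (g : Monoid.CoprodI M) :
    g = 1 ∨ (∃ (i : ι) (m : M i) (u : Monoid.CoprodI M), g = u * of m * u⁻¹) ∨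
      (∃ (i j : ι) (w : NeWord M i j) (u : Monoid.CoprodI M), i ≠ j ∧ g = u * w.prod * u⁻¹) := by
  classical
  have hg : g = lp (Word.equiv g).toList := (Word.equiv.symm_apply_apply g).symm
  have hR : Red (Word.equiv g).toList := ⟨(Word.equiv g).ne_one, (Word.equiv g).chain_ne⟩
  rcases list_tri _ _ le_rfl hR with h | ⟨i, m, u, h⟩ | ⟨a, b, mid, u, h1, h2, h⟩
  · left; rw [hg, h]
  · right; left; exact ⟨i, m, u, by rw [hg, h]⟩
  · right; right
    let w : Word M := ⟨a :: (mid ++ [b]), h1.1, h1.2⟩
    have hw : w ≠ Word.empty := by
      intro e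
      have := congrArg Word.toList e
      simp [w, Word.empty] at this
    obtain ⟨i, j, w', hw'⟩ := NeWord.of_word w hw
    have hl : w'.toList = a :: (mid ++ [b]) := congrArg Word.toList hw'
    have hi : i = a.1 := by
      have := w'.toList_head?
      rw [hl] at this
      simp only [List.head?_cons, Option.some.injEq] at this
      rw [this]
    have hj : j = b.1 := by
      have := w'.toList_getLast?
      rw [hl] at this
      have h3 : (a :: (mid ++ [b])).getLast? = some b := by
        have e : a :: (mid ++ [b]) = (a :: mid) ++ [b] := rfl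
        rw [e, List.getLast?_append]; rfl
      rw [h3] at this
      simp only [Option.some.injEq] at this
      rw [this]
    refine ⟨i, j, w', u, by rw [hi, hj]; exact h2, ?_⟩
    rw [hg, h]
    have : w'.prod = lp (a :: (mid ++ [b])) := by
      show w'.toWord.prod = _
      rw [hw']; rfl
    rw [this]

end Vale.Agent.Lib.P184.Free
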